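import Vale.Agent.P114.Link

open MeasureTheory Vale.Agent.P114

theorem Vale.Agent.Results.P114.EntropyDim.result {Λ : Type*} [Fintype Λ] [Nonempty Λ]
    (r t p : Λ → ℝ) (hr : ∀ i, 0 < |r i| ∧ |r i| < 1) (hp : ∀ i, 0 < p i) (hp1 : ∑ i, p i = 1)
    (μ : Measure ℝ) [IsProbabilityMeasure μ]
    (hμ : μ = ∑ i, ENNReal.ofReal (p i) • μ.map fun x => r i * x + t i) :
    measureDim μ = ENNReal.ofReal (min 1 (entropyRate r t p / lyapunov r p)) := by
  have hr' : ∀ i, r i ≠ 0 ∧ |r i| < 1 := fun i => ⟨abs_pos.1 (hr i).1, (hr i).2⟩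
  have hμ' : ∀ U, MeasurableSet U → μ.real U = ∑ a, p a * μ.real {x | r a * x + t a ∈ U} := by
    intro U hU
    conv_lhs => rw [Measure.real, hμ, Measure.finsetSum_apply]
    rw [ENNReal.toReal_sum fun a _ => by simp [ENNReal.mul_ne_top]]
    refine Finset.sum_congr rfl fun a _ => ?_
    rw [Measure.smul_apply, Measure.map_apply (by fun_prop) hU, smul_eq_mul, ENNReal.toReal_mul,
      ENNReal.toReal_ofReal (hp a).le]
    rfl
  have hχ := lyapunov_pos hr' hp hp1
  refine le_antisymm ?_ (ENNReal.le_of_forall_nnreal_lt fun d hd => ?_)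
  · rw [ENNReal.ofReal_min, ENNReal.ofReal_one]
    refine le_min ((iInf₂_le Set.univ MeasurableSet.univ).trans
      ((iInf_le _ (by simp)).trans_eq Real.dimH_univ))
      (ENNReal.le_of_forall_pos_le_add fun ε hε _ => ?_)
    obtain ⟨n, hn⟩ := exists_lt_of_ciInf_lt (show entropyRate r t p <
      entropyRate r t p + ε * lyapunov r p from lt_add_of_pos_right _ (mul_pos hε hχ))
    refine (measureDim_le_step hr' hp hp1 μ hμ' n).trans ((ENNReal.ofReal_le_ofReal
      (q := entropyRate r t p / lyapunov r p + ε) ?_).trans (ENNReal.ofReal_add_le.trans_eq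
        (by rw [ENNReal.ofReal_coe_nnreal])))
    rw [div_add' _ _ _ hχ.ne']
    exact div_le_div_of_nonneg_right hn.le hχ.le
  · rcases (zero_le (a := d)).eq_or_lt with h | h
    · simp [← h]
    · exact le_measureDim_of_lt hr' hp hp1 μ hμ' h (ENNReal.coe_lt_ofReal.1 hd)
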